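import Mathlib

/-!
# P131: necessary conditions on an operator without nontrivial hyperinvariant subspaces

If a nonscalar bounded operator `T` on a complex Hilbert space has no nontrivial closed
hyperinvariant subspace, then every nonzero polynomial in `T` is injective with dense range.
-/

namespace Vale.Agent.Results.P131.PolynomialObstruction

open Polynomial

variable {H : Type} [NormedAddCommGroup H] [InnerProductSpace ℂ H]

/-- `M` is a nontrivial closed hyperinvariant subspace for `T`. -/
def IsNontrivialHyperinvariant (T : H →L[ℂ] H) (M : Submodule ℂ H) : Prop :=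
  IsClosed (M : Set H) ∧ M ≠ ⊥ ∧ M ≠ ⊤ ∧ ∀ A : H →L[ℂ] H, A * T = T * A → ∀ x ∈ M, A x ∈ M

theorem commute_aeval (T A : H →L[ℂ] H) (h : A * T = T * A) (q : ℂ[X]) :
    A * aeval T q = aeval T q * A := by
  have hc : Commute A T := h
  induction q using Polynomial.induction_on' with
  | add p q hp hq => rw [map_add, mul_add, add_mul, hp, hq]
  | monomial n c =>
    rw [aeval_monomial]
    have h1 : Commute A (T ^ n) := hc.pow_right n
    have h2 : Commute A (algebraMap ℂ (H →L[ℂ] H) c) := (Algebra.commutes c A).symm
    exact (h2.mul_right h1)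

theorem result (T : H →L[ℂ] H)
    (hno : ¬ ∃ M : Submodule ℂ H, IsNontrivialHyperinvariant T M) (q : ℂ[X])
    (hq : aeval T q ≠ 0) :
    Function.Injective (aeval T q) ∧ DenseRange (aeval T q) := by
  set S : H →L[ℂ] H := aeval T q with hS
  have hcomm : ∀ A : H →L[ℂ] H, A * T = T * A → ∀ x, A (S x) = S (A x) := by
    intro A hA x
    have := commute_aeval T A hA q
    exact congrArg (fun F : H →L[ℂ] H => F x) this
  obtain ⟨z, hz⟩ : ∃ z, S z ≠ 0 := by
    by_contra hcon
    push Not at hcon
    exact hq (ContinuousLinearMap.ext hcon)
  have hr : ((LinearMap.range (S : H →ₗ[ℂ] H) : Submodule ℂ H) : Set H) = Set.range S := by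
    ext y
    simp
  constructor
  · by_contra hinj
    apply hno
    refine ⟨LinearMap.ker (S : H →ₗ[ℂ] H), ?_, ?_, ?_, ?_⟩
    · exact S.isClosed_ker
    · intro hbot
      apply hinj
      exact LinearMap.ker_eq_bot.1 hbot
    · intro htop
      have : z ∈ LinearMap.ker (S : H →ₗ[ℂ] H) := by rw [htop]; exact Submodule.mem_top
      exact hz (LinearMap.mem_ker.1 this)
    · intro A hA x hx
      have hx' : S x = 0 := LinearMap.mem_ker.1 hx
      apply LinearMap.mem_ker.2
      change S (A x) = 0
      rw [← hcomm A hA x, hx', map_zero]
  · by_contra hd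
    apply hno
    refine ⟨(LinearMap.range (S : H →ₗ[ℂ] H)).topologicalClosure, ?_, ?_, ?_, ?_⟩
    · exact Submodule.isClosed_topologicalClosure _
    · intro hbot
      have : S z ∈ (LinearMap.range (S : H →ₗ[ℂ] H)).topologicalClosure :=
        Submodule.le_topologicalClosure _ ⟨z, rfl⟩
      rw [hbot, Submodule.mem_bot] at this
      exact hz this
    · intro htop
      apply hd
      have := (Submodule.dense_iff_topologicalClosure_eq_top).2 htop
      rw [hr] at this
      exact this
    · intro A hA x hx
      have hx' : x ∈ closure (Set.range S) := by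
        have := hx
        rw [← SetLike.mem_coe, Submodule.topologicalClosure_coe, hr] at this
        exact this
      have h2 : A x ∈ closure (Set.range S) := by
        refine map_mem_closure A.continuous hx' ?_
        rintro _ ⟨y, rfl⟩
        exact ⟨A y, (hcomm A hA y).symm⟩
      rw [← SetLike.mem_coe, Submodule.topologicalClosure_coe, hr]
      exact h2

end Vale.Agent.Results.P131.PolynomialObstruction
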